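import Vale.Agent.P181.H536.Dk2
import Mathlib.LinearAlgebra.Vandermonde

/-!
The product of all Dunkl operators applied to a product of one polynomial in every variable:
a determinant formula.
-/

namespace Vale.Agent.P181.H78

open MvPolynomial Vale.Agent.P181.H536.Dk

section det

variable {R : Type*} [CommRing R] {m : ℕ}

/-- expansion along the last column after replacing `X ^ m` by a monic polynomial of degree `m` -/
theorem det_expand (l : Fin (m + 1) → Polynomial R →ₗ[R] R) {p : Polynomial R}
    (hp : p.Monic) (hd : p.natDegree = m) :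
    (Matrix.of fun i (k : Fin (m + 1)) => l i (Polynomial.X ^ (k : ℕ))).det
      = ∑ i : Fin (m + 1), (-1) ^ ((i : ℕ) + m) * l i p *
        (Matrix.of fun (i' k : Fin m) => l (i.succAbove i') (Polynomial.X ^ (k : ℕ))).det := by
  set M : Matrix (Fin (m + 1)) (Fin (m + 1)) R :=
    Matrix.of fun i (k : Fin (m + 1)) => l i (Polynomial.X ^ (k : ℕ)) with hM
  have h1 := Matrix.det_updateCol_sum M (Fin.last m) (fun k => p.coeff k)
  have hc : p.coeff ((Fin.last m : Fin (m + 1)) : ℕ) = 1 := by
    rw [Fin.val_last, ← hd]; exact hp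
  rw [hc, one_smul] at h1
  have hcol : (fun k => ∑ i : Fin (m + 1), p.coeff i • M k i) = fun k => l k p := by
    funext k
    have hps : p = ∑ i : Fin (m + 1), Polynomial.C (p.coeff i) * Polynomial.X ^ (i : ℕ) := by
      conv_lhs => rw [p.as_sum_range_C_mul_X_pow, hd]
      rw [← Fin.sum_univ_eq_sum_range (fun i => Polynomial.C (p.coeff i) * Polynomial.X ^ i)]
    conv_rhs => rw [hps]
    rw [map_sum]
    refine Finset.sum_congr rfl fun i _ => ?_
    rw [← Polynomial.smul_eq_C_mul, map_smul]
    rfl
  rw [hcol] at h1
  rw [← h1, Matrix.det_succ_column _ (Fin.last m)]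
  refine Finset.sum_congr rfl fun i _ => ?_
  rw [Fin.val_last, Matrix.updateCol_self]
  congr 2
  ext a b
  simp only [Matrix.submatrix_apply, Fin.succAbove_last, hM, Matrix.of_apply]
  rw [Matrix.updateCol_ne (Fin.castSucc_lt_last b).ne]
  simp

/-- the functional `p ↦ p (v i)` -/
noncomputable def lv (v : Fin (m + 1) → R) (i : Fin (m + 1)) : Polynomial R →ₗ[R] R :=
  Polynomial.leval (v i)

/-- the functional `p ↦ f (v i) p' (v i) - f' (v i) p (v i)` -/
noncomputable def lf (f : Polynomial R) (y : R) : Polynomial R →ₗ[R] R :=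
  f.eval y • ((Polynomial.leval y).comp Polynomial.derivative)
    - (Polynomial.derivative f).eval y • Polynomial.leval y

theorem lf_apply (f p : Polynomial R) (y : R) :
    lf f y p = f.eval y * (Polynomial.derivative p).eval y
      - (Polynomial.derivative f).eval y * p.eval y := by
  simp [lf, Polynomial.leval]

/-- Vandermonde determinant -/
noncomputable def W {n : ℕ} (v : Fin n → R) : R :=
  (Matrix.of fun (i k : Fin n) => (Polynomial.leval (v i)) (Polynomial.X ^ (k : ℕ))).det

/-- the Wronskian type determinant -/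
noncomputable def A {n : ℕ} (f : Polynomial R) (v : Fin n → R) : R :=
  (Matrix.of fun (i k : Fin n) => lf f (v i) (Polynomial.X ^ (k : ℕ))).det

theorem W_eq {n : ℕ} (v : Fin n → R) : W v = (Matrix.vandermonde v).det := by
  unfold W
  congr 1
  ext i k
  simp [Polynomial.leval, Matrix.vandermonde_apply]

theorem W_eq_prod {n : ℕ} (v : Fin n → R) :
    W v = ∏ i : Fin n, ∏ j ∈ Finset.Ioi i, (v j - v i) := by
  rw [W_eq, Matrix.det_vandermonde]

theorem W_expand (v : Fin (m + 1) → R) {p : Polynomial R} (hp : p.Monic) (hd : p.natDegree = m) :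
    W v = ∑ i : Fin (m + 1), (-1) ^ ((i : ℕ) + m) * p.eval (v i) *
        W (fun i' => v (i.succAbove i')) :=
  det_expand (fun i => Polynomial.leval (v i)) hp hd

theorem A_expand (f : Polynomial R) (v : Fin (m + 1) → R) {p : Polynomial R} (hp : p.Monic)
    (hd : p.natDegree = m) :
    A f v = ∑ i : Fin (m + 1), (-1) ^ ((i : ℕ) + m) *
        (f.eval (v i) * (Polynomial.derivative p).eval (v i)
          - (Polynomial.derivative f).eval (v i) * p.eval (v i)) *
        A f (fun i' => v (i.succAbove i')) := by
  have h := det_expand (fun i => lf f (v i)) hp hd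
  simp only [lf_apply] at h
  unfold A
  simp only [lf_apply]
  exact h

/-- `∏_{l ≠ i} (X - v l)` -/
noncomputable def pr (v : Fin (m + 1) → R) (i : Fin (m + 1)) : Polynomial R :=
  ∏ l : Fin m, (Polynomial.X - Polynomial.C (v (i.succAbove l)))

theorem pr_monic (v : Fin (m + 1) → R) (i : Fin (m + 1)) : (pr v i).Monic :=
  Polynomial.monic_prod_of_monic _ _ fun _ _ => Polynomial.monic_X_sub_C _

theorem pr_natDegree [Nontrivial R] (v : Fin (m + 1) → R) (i : Fin (m + 1)) :
    (pr v i).natDegree = m := by
  unfold pr
  rw [Polynomial.natDegree_prod_of_monic _ _ fun _ _ => Polynomial.monic_X_sub_C _]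
  simp

theorem pr_eval_ne (v : Fin (m + 1) → R) {i j : Fin (m + 1)} (h : j ≠ i) :
    (pr v i).eval (v j) = 0 := by
  obtain ⟨l, rfl⟩ := Fin.exists_succAbove_eq h
  unfold pr
  rw [Polynomial.eval_prod]
  exact Finset.prod_eq_zero (Finset.mem_univ l) (by simp)

/-- `±∏_{l ≠ i} (v i - v l) W (v without i) = W v` -/
theorem W_pr [Nontrivial R] (v : Fin (m + 1) → R) (i : Fin (m + 1)) :
    W v = (-1) ^ ((i : ℕ) + m) * (pr v i).eval (v i) * W (fun i' => v (i.succAbove i')) := by
  rw [W_expand v (pr_monic v i) (pr_natDegree v i)]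
  refine Finset.sum_eq_single_of_mem i (Finset.mem_univ i) fun j _ hj => ?_
  rw [pr_eval_ne v hj]; ring

theorem pr_total (v : Fin (m + 1) → R) (i : Fin (m + 1)) :
    (∏ l : Fin (m + 1), (Polynomial.X - Polynomial.C (v l)))
      = (Polynomial.X - Polynomial.C (v i)) * pr v i := by
  rw [Fin.prod_univ_succAbove _ i]; rfl

/-- derivative of `∏_{l ≠ last} (X - v l)` at `v i` times `v i - v last` -/
theorem pr_last_deriv (v : Fin (m + 1) → R) {i : Fin (m + 1)} (h : i ≠ Fin.last m) :
    (v i - v (Fin.last m)) * (Polynomial.derivative (pr v (Fin.last m))).eval (v i)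
      = (pr v i).eval (v i) := by
  have h1 : (Polynomial.X - Polynomial.C (v (Fin.last m))) * pr v (Fin.last m)
      = (Polynomial.X - Polynomial.C (v i)) * pr v i := by
    rw [← pr_total, ← pr_total]
  have h2 := congrArg (fun q => (Polynomial.derivative q).eval (v i)) h1
  simp only [Polynomial.derivative_mul, Polynomial.derivative_sub, Polynomial.derivative_X,
    Polynomial.derivative_C, sub_zero, one_mul, Polynomial.eval_add, Polynomial.eval_mul,
    Polynomial.eval_sub, Polynomial.eval_X, Polynomial.eval_C, sub_self, zero_mul, add_zero] at h2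
  rw [pr_eval_ne v h, zero_add] at h2
  exact h2

/-- `∏_{l ≠ last, l ≠ j} (v last - v l)` times `W (v without last)` -/
noncomputable def w (v : Fin (m + 1) → R) (j : Fin m) : R :=
  (∏ l ∈ Finset.univ.erase j, (v (Fin.last m) - v l.castSucc)) *
    W (fun i' => v ((Fin.last m).succAbove i'))

theorem w_mul [Nontrivial R] (v : Fin (m + 1) → R) (j : Fin m) :
    (v (Fin.last m) - v j.castSucc) * w v j = W v := by
  rw [W_pr v (Fin.last m), w, ← mul_assoc,
    Finset.mul_prod_erase Finset.univ (fun l : Fin m => v (Fin.last m) - v l.castSucc)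
      (Finset.mem_univ j), Fin.val_last]
  have : ((-1 : R) ^ (m + m)) = 1 := by rw [← two_mul, pow_mul]; simp
  rw [this, one_mul]
  congr 1
  unfold pr
  rw [Polynomial.eval_prod]
  exact Finset.prod_congr rfl fun l _ => by simp

theorem w_sum (v : Fin (m + 1) → R) :
    (Polynomial.derivative (pr v (Fin.last m))).eval (v (Fin.last m)) *
      W (fun i' => v ((Fin.last m).succAbove i')) = ∑ j, w v j := by
  unfold pr w
  rw [← Finset.sum_mul, Polynomial.derivative_prod_finset, Polynomial.eval_finsetSum]
  congr 1
  refine Finset.sum_congr rfl fun j _ => ?_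
  simp [Polynomial.eval_prod]

/-- the induction step, in coordinates -/
theorem A_step [IsDomain R] (f : Polynomial R) (v : Fin (m + 1) → R)
    (hv : ∀ j : Fin m, v (Fin.last m) - v j.castSucc ≠ 0) (q : Fin (m + 1) → R)
    (hq : ∀ i, W (fun i' => v (i.succAbove i')) * q i
      = (-1) ^ m * A f (fun i' => v (i.succAbove i'))) :
    (-1) ^ (m + 1) * A f v
      = W v * ((Polynomial.derivative f).eval (v (Fin.last m)) * q (Fin.last m))
        - ∑ j : Fin m, w v j * (f.eval (v (Fin.last m)) * q (Fin.last m)
          - f.eval (v j.castSucc) * q j.castSucc) := by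
  have h1 := A_expand f v (pr_monic v (Fin.last m)) (pr_natDegree v (Fin.last m))
  rw [Fin.sum_univ_castSucc] at h1
  have e2 : ((-1 : R) ^ (m + m)) = 1 := by rw [← two_mul, pow_mul]; simp
  have h2 : ∀ j : Fin m, (-1) ^ ((j.castSucc : ℕ) + m) *
      (Polynomial.derivative (pr v (Fin.last m))).eval (v j.castSucc) *
      W (fun i' => v (j.castSucc.succAbove i')) = - w v j := by
    intro j
    apply mul_left_cancel₀ (hv j)
    have h3 := pr_last_deriv v (i := j.castSucc) (Fin.castSucc_lt_last j).ne
    have h4 := W_pr v j.castSucc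
    rw [← h3] at h4
    have h5 := w_mul v j
    rw [h4] at h5
    linear_combination h5
  have h3 : ∀ j : Fin m, (-1) ^ m * ((-1) ^ ((j.castSucc : ℕ) + m) *
        (f.eval (v j.castSucc) * (Polynomial.derivative (pr v (Fin.last m))).eval (v j.castSucc)
          - (Polynomial.derivative f).eval (v j.castSucc) *
            (pr v (Fin.last m)).eval (v j.castSucc)) *
        A f (fun i' => v (j.castSucc.succAbove i')))
      = - w v j * (f.eval (v j.castSucc) * q j.castSucc) := by
    intro j
    rw [pr_eval_ne v (Fin.castSucc_lt_last j).ne, mul_zero, sub_zero, ← h2 j]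
    have := hq j.castSucc
    linear_combination (-(-1) ^ ((j.castSucc : ℕ) + m) * f.eval (v j.castSucc) *
      (Polynomial.derivative (pr v (Fin.last m))).eval (v j.castSucc)) * this
  have h4 : (-1) ^ m * ((-1) ^ (((Fin.last m : Fin (m + 1)) : ℕ) + m) *
        (f.eval (v (Fin.last m)) *
            (Polynomial.derivative (pr v (Fin.last m))).eval (v (Fin.last m))
          - (Polynomial.derivative f).eval (v (Fin.last m)) *
            (pr v (Fin.last m)).eval (v (Fin.last m))) *
        A f (fun i' => v ((Fin.last m).succAbove i')))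
      = (∑ j, w v j) * (f.eval (v (Fin.last m)) * q (Fin.last m))
        - W v * ((Polynomial.derivative f).eval (v (Fin.last m)) * q (Fin.last m)) := by
    rw [Fin.val_last, e2, ← w_sum, W_pr v (Fin.last m), Fin.val_last, e2]
    have := hq (Fin.last m)
    linear_combination (-(f.eval (v (Fin.last m)) *
            (Polynomial.derivative (pr v (Fin.last m))).eval (v (Fin.last m))
          - (Polynomial.derivative f).eval (v (Fin.last m)) *
            (pr v (Fin.last m)).eval (v (Fin.last m)))) * this
  rw [h1, pow_succ]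
  rw [show (-1 : R) ^ m * -1 * (∑ i : Fin m, (-1) ^ ((i.castSucc : ℕ) + m) *
        (f.eval (v i.castSucc) * (Polynomial.derivative (pr v (Fin.last m))).eval (v i.castSucc)
          - (Polynomial.derivative f).eval (v i.castSucc) *
            (pr v (Fin.last m)).eval (v i.castSucc)) *
        A f (fun i' => v (i.castSucc.succAbove i'))
      + (-1) ^ (((Fin.last m : Fin (m + 1)) : ℕ) + m) *
        (f.eval (v (Fin.last m)) *
            (Polynomial.derivative (pr v (Fin.last m))).eval (v (Fin.last m))
          - (Polynomial.derivative f).eval (v (Fin.last m)) *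
            (pr v (Fin.last m)).eval (v (Fin.last m))) *
        A f (fun i' => v ((Fin.last m).succAbove i')))
    = -(∑ i : Fin m, (-1) ^ m * ((-1) ^ ((i.castSucc : ℕ) + m) *
        (f.eval (v i.castSucc) * (Polynomial.derivative (pr v (Fin.last m))).eval (v i.castSucc)
          - (Polynomial.derivative f).eval (v i.castSucc) *
            (pr v (Fin.last m)).eval (v i.castSucc)) *
        A f (fun i' => v (i.castSucc.succAbove i')))) -
      ((-1) ^ m * ((-1) ^ (((Fin.last m : Fin (m + 1)) : ℕ) + m) *
        (f.eval (v (Fin.last m)) *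
            (Polynomial.derivative (pr v (Fin.last m))).eval (v (Fin.last m))
          - (Polynomial.derivative f).eval (v (Fin.last m)) *
            (pr v (Fin.last m)).eval (v (Fin.last m))) *
        A f (fun i' => v ((Fin.last m).succAbove i')))) from by
      rw [← Finset.mul_sum]; ring]
  rw [h4, Finset.sum_congr rfl fun j _ => h3 j, Finset.sum_mul]
  simp only [mul_sub, Finset.sum_sub_distrib, neg_mul, Finset.sum_neg_distrib]
  ring

end det


section alg

variable {K : Type*} [CommRing K] {R : Type*} [CommRing R] [Algebra K R]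

/-- the Wronskian type determinant for a polynomial over the base ring -/
noncomputable def Ad {n : ℕ} (f : Polynomial K) (v : Fin n → R) : R :=
  (Matrix.of fun i (k : Fin n) => Polynomial.aeval (v i)
    (f * Polynomial.derivative (Polynomial.X ^ (k : ℕ))
      - Polynomial.derivative f * Polynomial.X ^ (k : ℕ))).det

theorem A_alg {n : ℕ} (f : Polynomial K) (v : Fin n → R) :
    A (f.map (algebraMap K R)) v = Ad f v := by
  unfold A Ad
  congr 1
  ext i k
  simp only [Matrix.of_apply, lf_apply, map_sub, map_mul, Polynomial.eval_map_algebraMap,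
    Polynomial.derivative_map, Polynomial.derivative_X_pow, Polynomial.eval_mul,
    Polynomial.eval_pow, Polynomial.eval_X, Polynomial.aeval_X, map_pow, map_natCast,
    Polynomial.eval_natCast]

theorem Ad_map {R' : Type*} [CommRing R'] [Algebra K R'] {n : ℕ} (f : Polynomial K)
    (v : Fin n → R) (φ : R →ₐ[K] R') : φ (Ad f v) = Ad f (fun i => φ (v i)) := by
  unfold Ad
  rw [AlgHom.map_det]
  congr 1
  ext i k
  simp only [AlgHom.mapMatrix_apply, Matrix.map_apply, Matrix.of_apply,
    Polynomial.aeval_algHom_apply]

theorem W_map {R' : Type*} [CommRing R'] [Algebra K R'] {n : ℕ}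
    (v : Fin n → R) (φ : R →ₐ[K] R') : φ (W v) = W (fun i => φ (v i)) := by
  rw [W_eq_prod, W_eq_prod, map_prod]
  refine Finset.prod_congr rfl fun i _ => ?_
  rw [map_prod]
  exact Finset.prod_congr rfl fun j _ => by rw [map_sub]

end alg

section inj

variable {σ τ : Type*} [DecidableEq σ] [DecidableEq τ] {K : Type*} [CommRing K]

theorem rename_sw_inj {e : σ → τ} (he : Function.Injective e) (i j : σ) (p : MvPolynomial σ K) :
    rename e (sw i j p) = sw (e i) (e j) (rename e p) := by
  simp only [sw, rename_rename]
  congr 2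
  funext x
  simp only [Function.comp_apply, Equiv.swap_apply_def, he.eq_iff]
  split_ifs <;> rfl

theorem rename_dd_inj [IsDomain K] {e : σ → τ} (he : Function.Injective e) (i j : σ)
    (p : MvPolynomial σ K) : rename e (dd i j p) = dd (e i) (e j) (rename e p) := by
  by_cases h : i = j
  · subst h; simp [dd_self]
  · have h' : e i ≠ e j := fun hh => h (he hh)
    symm
    apply dd_unique h'
    have := congrArg (rename (R := K) e) (dd_spec i j p)
    simp only [map_mul, map_sub, rename_X, rename_sw_inj he] at this
    exact this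

/-- `f (X i)` -/
noncomputable def fx (f : Polynomial K) (i : σ) : MvPolynomial σ K := Polynomial.aeval (X i) f

omit [DecidableEq σ] [DecidableEq τ] in
theorem rename_fx (e : σ → τ) (f : Polynomial K) (i : σ) :
    rename e (fx f i) = fx f (e i) := by
  unfold fx
  rw [← Polynomial.aeval_algHom_apply, rename_X]

theorem sw_fx (f : Polynomial K) (i j l : σ) :
    sw i j (fx f l) = fx f (Equiv.swap i j l) := rename_fx _ f l

omit [DecidableEq σ] in
theorem pderiv_fx_ne (f : Polynomial K) {i l : σ} (h : l ≠ i) : pderiv i (fx f l) = 0 := by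
  unfold fx
  rw [Derivation.map_aeval, pderiv_X_of_ne h, smul_zero]

omit [DecidableEq σ] in
theorem pderiv_fx (f : Polynomial K) (i : σ) :
    pderiv i (fx f i) = fx (Polynomial.derivative f) i := by
  unfold fx
  rw [Derivation.map_aeval, pderiv_X_self, smul_eq_mul, mul_one]

end inj

section main

variable {K : Type*} [CommRing K] [IsDomain K]

/-- the product of all Dunkl operators applied to `∏ f (X i)` -/
noncomputable def Q (f : Polynomial K) (m : ℕ) : MvPolynomial (Fin m) K :=
  evT (∏ i, X i) (∏ i, fx f i)

omit [IsDomain K] in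
theorem rename_prod_fx {m : ℕ} (f : Polynomial K) (e : Fin m ≃ Fin m) :
    rename e (∏ i, fx f i) = ∏ i, fx f i := by
  rw [map_prod, ← Equiv.prod_comp e (fun i => fx f i)]
  exact Finset.prod_congr rfl fun i _ => rename_fx _ f i

theorem rename_Q {m : ℕ} (f : Polynomial K) (e : Fin m ≃ Fin m) :
    rename e (Q f m) = Q f m := by
  unfold Q
  rw [rename_evT, rename_prod_fx]
  congr 1
  rw [map_prod, ← Equiv.prod_comp e (fun i => (X i : MvPolynomial (Fin m) K))]
  simp only [rename_X]

theorem rename_Q_of {m n : ℕ} (f : Polynomial K) {φ ψ : Fin m → Fin n}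
    (hφ : Function.Injective φ) (h : ∀ x, ∃ y, ψ y = φ x) :
    rename φ (Q f m) = rename ψ (Q f m) := by
  choose e he using h
  have hinj : Function.Injective e := by
    intro a b hab
    apply hφ
    rw [← he a, ← he b, hab]
  have hb : Function.Bijective e := Finite.injective_iff_bijective.mp hinj
  have h1 := rename_Q f (Equiv.ofBijective e hb)
  conv_rhs => rw [← h1]
  rw [rename_rename]
  congr 2
  funext x
  exact (he x).symm

theorem T_castSucc {m : ℕ} (f : Polynomial K) (a : Fin m) (p : MvPolynomial (Fin m) K)
    (h : sw a.castSucc (Fin.last m) (rename Fin.castSucc p * fx f (Fin.last m))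
      = rename Fin.castSucc p * fx f (Fin.last m)) :
    T a.castSucc (rename Fin.castSucc p * fx f (Fin.last m))
      = rename Fin.castSucc (T a p) * fx f (Fin.last m) := by
  rw [T_apply, T_apply, Fin.sum_univ_castSucc, dd_of_sym h, add_zero, map_sub, map_sum,
    Derivation.leibniz, pderiv_fx_ne f (Fin.castSucc_lt_last a).ne', smul_zero, zero_add,
    pderiv_rename (Fin.castSucc_injective m), sub_mul, Finset.sum_mul, smul_eq_mul, mul_comm]
  congr 1
  refine Finset.sum_congr rfl fun j _ => ?_
  rw [rename_dd_inj (Fin.castSucc_injective m), mul_comm (rename Fin.castSucc p), dd_mul,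
    dd_of_sym, zero_mul, zero_add, sw_fx, mul_comm]
  · rw [Equiv.swap_apply_of_ne_of_ne (Fin.castSucc_lt_last a).ne' (Fin.castSucc_lt_last j).ne']
  · rw [sw_fx,
      Equiv.swap_apply_of_ne_of_ne (Fin.castSucc_lt_last a).ne' (Fin.castSucc_lt_last j).ne']

theorem evT_part {m : ℕ} (f : Polynomial K) (A : Finset (Fin m)) :
    evT (∏ a ∈ A, X a.castSucc) (∏ i : Fin (m + 1), fx f i)
      = rename Fin.castSucc (evT (∏ a ∈ A, X a) (∏ i : Fin m, fx f i)) * fx f (Fin.last m) := by
  induction A using Finset.induction_on with
  | empty =>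
      rw [Finset.prod_empty, Finset.prod_empty, evT_one, evT_one, Fin.prod_univ_castSucc, map_prod]
      congr 1
      exact Finset.prod_congr rfl fun i _ => (rename_fx _ f i).symm
  | insert a A ha ih =>
      rw [Finset.prod_insert ha, Finset.prod_insert ha, evT_X_mul, evT_X_mul, ih, T_castSucc]
      rw [← ih, sw_evT]
      have h1 : sw a.castSucc (Fin.last m) (∏ i : Fin (m + 1), fx f i)
          = ∏ i : Fin (m + 1), fx f i := rename_prod_fx f _
      have h2 : sw a.castSucc (Fin.last m) (∏ b ∈ A, (X b.castSucc : MvPolynomial _ K))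
          = ∏ b ∈ A, X b.castSucc := by
        rw [map_prod]
        refine Finset.prod_congr rfl fun b hb => ?_
        rw [sw_X, Equiv.swap_apply_of_ne_of_ne _ (Fin.castSucc_lt_last b).ne]
        intro h3
        exact ha (by rw [← Fin.castSucc_injective m h3]; exact hb)
      rw [h1, h2]

theorem Q_succ {m : ℕ} (f : Polynomial K) :
    Q f (m + 1) = T (Fin.last m) (rename Fin.castSucc (Q f m) * fx f (Fin.last m)) := by
  unfold Q
  rw [← evT_part, Fin.prod_univ_castSucc, mul_comm, evT_X_mul]

theorem W_Q_succ {m : ℕ} (f : Polynomial K) :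
    W (X : Fin (m + 1) → MvPolynomial (Fin (m + 1)) K) * Q f (m + 1)
      = W X * (fx (Polynomial.derivative f) (Fin.last m) *
          rename (Fin.last m).succAbove (Q f m))
        - ∑ j : Fin m, w X j * (fx f (Fin.last m) * rename (Fin.last m).succAbove (Q f m)
          - fx f j.castSucc * rename j.castSucc.succAbove (Q f m)) := by
  have hl : (Fin.last m).succAbove = Fin.castSucc := by
    funext x; exact Fin.succAbove_last_apply x
  rw [Q_succ, T_apply, Fin.sum_univ_castSucc, dd_self, add_zero, mul_sub, Finset.mul_sum, hl,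
    Derivation.leibniz, pderiv_fx, smul_eq_mul, smul_eq_mul]
  have h0 : pderiv (Fin.last m) (rename Fin.castSucc (Q f m)) = 0 := by
    apply pderiv_eq_zero_of_notMem_vars
    intro h
    obtain ⟨i, _, hi⟩ := mem_vars_rename Fin.castSucc (Q f m) h
    exact (Fin.castSucc_lt_last i).ne hi
  rw [h0, mul_zero, add_zero]
  congr 1
  · ring
  refine Finset.sum_congr rfl fun j _ => ?_
  rw [← w_mul X j]
  have h1 := dd_spec (Fin.last m) j.castSucc (rename Fin.castSucc (Q f m) * fx f (Fin.last m))
  have h2 : sw (Fin.last m) j.castSucc (rename Fin.castSucc (Q f m))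
      = rename j.castSucc.succAbove (Q f m) := by
    unfold sw
    rw [rename_rename]
    apply rename_Q_of
    · exact (Equiv.injective _).comp (Fin.castSucc_injective m)
    · intro x
      apply Fin.exists_succAbove_eq
      intro h3
      have h4 := congrArg (Equiv.swap (Fin.last m) j.castSucc) h3
      rw [Function.comp_apply, Equiv.swap_apply_self, Equiv.swap_apply_right] at h4
      exact (Fin.castSucc_lt_last x).ne h4
  rw [map_mul, h2, sw_fx, Equiv.swap_apply_left] at h1
  linear_combination (w X j) * h1

theorem W_mul_Q (f : Polynomial K) (m : ℕ) :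
    W (X : Fin m → MvPolynomial (Fin m) K) * Q f m = (-1) ^ m * Ad f X := by
  induction m with
  | zero =>
      unfold W Ad Q
      simp
  | succ m ih =>
      rw [W_Q_succ]
      have hq : ∀ i : Fin (m + 1), W (fun i' => (X (i.succAbove i') : MvPolynomial _ K)) *
          rename i.succAbove (Q f m)
          = (-1) ^ m * A (f.map (algebraMap K (MvPolynomial (Fin (m + 1)) K)))
              (fun i' => X (i.succAbove i')) := by
        intro i
        have h1 := congrArg (rename (R := K) i.succAbove) ih
        rw [map_mul, map_mul, W_map, Ad_map, map_pow, map_neg, map_one] at h1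
        simp only [rename_X] at h1
        rw [A_alg]
        exact h1
      have h2 := A_step (f.map (algebraMap K (MvPolynomial (Fin (m + 1)) K)))
        (X : Fin (m + 1) → MvPolynomial (Fin (m + 1)) K)
        (fun j => X_sub_ne (Fin.castSucc_lt_last j).ne')
        (fun i => rename i.succAbove (Q f m)) hq
      rw [A_alg] at h2
      rw [h2]
      simp only [Polynomial.derivative_map, Polynomial.eval_map_algebraMap]
      rfl

/-- the product of all Dunkl operators applied to `∏ f (X i)`, times the Vandermonde product -/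
theorem D_prod (f : Polynomial K) (m : ℕ) :
    (∏ i : Fin m, ∏ j ∈ Finset.Ioi i, (X j - X i : MvPolynomial (Fin m) K)) *
        evT (∏ i, X i) (∏ i, Polynomial.aeval (X i) f)
      = (-1) ^ m * (Matrix.of fun i (k : Fin m) => Polynomial.aeval (X i : MvPolynomial (Fin m) K)
          (f * Polynomial.derivative (Polynomial.X ^ (k : ℕ))
            - Polynomial.derivative f * Polynomial.X ^ (k : ℕ))).det := by
  have := W_mul_Q f m
  rw [W_eq_prod] at this
  exact this

end main

end Vale.Agent.P181.H78
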